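import Vale.Agent.P256L.LinTower

/-!
# P256: the closure rule `P ↦ P(t² e - t L(x) - q(x))` for the projected Lax conjecture

If `K(P, e)` is a spectrahedral shadow, `L` is ANY linear map and `q` is ANY quadratic map with
values in `K(P, e)` (no sum-of-squares or complete positivity assumption), then
`P(t² e - t L(x) - q(x))` is hyperbolic and its hyperbolicity cone is a spectrahedral shadow.
-/

open Matrix Vale.Agent.P256L

namespace Vale.Agent.Results.P256.PencilLift

theorem result :
    (∀ (m n : ℕ) (P : MvPolynomial (Fin m) ℝ) (e : Fin m → ℝ) (M : Matrix (Fin m) (Fin n) ℝ)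
        (S : Fin m → Matrix (Fin n) (Fin n) ℝ),
      IsHyperbolic P e → IsSpectrahedralShadow (hyperbolicityCone P e) →
      (∀ x : Fin n → ℝ,
        (fun i => MvPolynomial.eval x (quadForm (S i))) ∈ hyperbolicityCone P e) →
      IsHyperbolic (pencilLift P e M S) (dir n) ∧
        IsSpectrahedralShadow (hyperbolicityCone (pencilLift P e M S) (dir n))) ∧
    (∀ (n : ℕ) (p : MvPolynomial (Fin n) ℝ) (e : Fin n → ℝ), PencilTower n p e →
      IsHyperbolic p e ∧ IsSpectrahedralShadow (hyperbolicityCone p e)) ∧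
    (∀ (n N : ℕ) (E : Matrix (Fin N) (Fin N) ℝ) (L : Fin n → Matrix (Fin N) (Fin N) ℝ)
        (C : Fin n → Fin n → Matrix (Fin N) (Fin N) ℝ),
      E.PosDef → (∀ a, (L a).IsSymm) → (∀ a b, (C a b).IsSymm) →
      (∀ x : Fin n → ℝ, (∑ a, ∑ b, (x a * x b) • C a b).PosSemidef) →
      IsHyperbolic (matPencilPoly E L C) (dir n) ∧
        IsSpectrahedralShadow (hyperbolicityCone (matPencilPoly E L C) (dir n))) ∧
    (∀ (n k : ℕ) (a : Matrix (Fin n) (Fin n) ℝ) (q : Fin k → Matrix (Fin n) (Fin n) ℝ),
      IsHyperbolic (evenQuartic a q) (dir n) →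
      IsSpectrahedralShadow (hyperbolicityCone (evenQuartic a q) (dir n))) := by
  refine ⟨fun m n P e M S h hs hq => ?_, fun n p e h => pencilTower_main h,
    fun n N E L C hE hL hC hpos => matPencil_main hE hL hC hpos,
    fun n k a q h => evenQuartic_main a q h⟩
  refine closure_rule_lin h hs M fun x => ?_
  rw [← qval_eq]
  exact hq x

end Vale.Agent.Results.P256.PencilLift
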