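import Vale.Agent.P256.ClosureFinal

open Vale.Agent.P256

namespace Vale.Agent.Results.P256.QuadraticClosure

/-- Let `h` be hyperbolic with respect to `e`, such that its hyperbolicity cone `K` is a
spectrahedral shadow, and let `φ(w) = ∑ wᵢ wⱼ φᵢⱼ` be a quadratic map into `K`.  Then
`h (x₀² e - φ(w))` is hyperbolic with respect to `(1, 0)` and its hyperbolicity cone is a
spectrahedral shadow. -/
theorem result {m n : ℕ} (h : MvPolynomial (Fin m) ℝ) (e : Fin m → ℝ)
    (φ : Fin n → Fin n → Fin m → ℝ) (hh : IsHyperbolic h e)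
    (hS : IsSpectrahedralShadow (hypCone h e))
    (hφ : ∀ w : Fin n → ℝ, (∑ i, ∑ j, (w i * w j) • φ i j) ∈ hypCone h e) :
    IsHyperbolic (quadSubst h e φ) (Pi.single 0 1) ∧
      IsSpectrahedralShadow (hypCone (quadSubst h e φ) (Pi.single 0 1)) :=
  ⟨quadSubst_hyperbolic hh hφ, quad_shadow_all hh hS hφ⟩

end Vale.Agent.Results.P256.QuadraticClosure
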