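import Vale.Agent.P256.Final

open Matrix Vale.Agent.P256

namespace Vale.Agent.Results.P256.QuadraticPencil

/-- Let `L(w) = ∑ wᵢ Lᵢ` be a linear and `Φ(w) = ∑ wᵢ wⱼ Φᵢⱼ` a quadratic map into the real
symmetric `k × k` matrices with `Φ(w) ⪰ 0` for all `w` (no sum of squares condition).  Then
`det (x₀² I - x₀ L(w) - Φ(w))` is hyperbolic with respect to `(1, 0)` and its hyperbolicity cone is
a spectrahedral shadow. -/
theorem result {n k : ℕ} (hk : 0 < k) (L : Fin n → Matrix (Fin k) (Fin k) ℝ)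
    (Φ : Fin n → Fin n → Matrix (Fin k) (Fin k) ℝ) (hL : ∀ i, (L i).IsSymm)
    (hΦ : ∀ i j, (Φ i j).IsSymm) (hc : ∀ i j, Φ i j = Φ j i)
    (hpos : ∀ w : Fin n → ℝ, (∑ i, ∑ j, (w i * w j) • Φ i j).PosSemidef) :
    IsHyperbolic (quadDet L Φ) (Pi.single 0 1) ∧
      IsSpectrahedralShadow (hypCone (quadDet L Φ) (Pi.single 0 1)) :=
  ⟨isHyperbolic L Φ hL hpos, isShadow hk L Φ hL hΦ hc hpos⟩

end Vale.Agent.Results.P256.QuadraticPencil
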